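import Crest.Agent.Helper82.OT.LagWeights
import Crest.Agent.Helper82.SD.Cont

/-!
# Row 82 (S0109) — continuity of cell masses in the weights and of the weights in the masses,
in the shape of `Crest.Agent.Helper75.OT.Spec` (`lagWeights_tendsto`; `Spec.continuous_gM` is the
`atTop` instance of `tendsto_gM` — its canonical copy lives in `Helper59/OT/ContGM.lean`), and
`mass_deriv_of_le` (the derivative of `Mval` in the mass direction from the supergradient
inequality `Mval_mass_le`, taken as a hypothesis).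
-/

set_option autoImplicit false

noncomputable section

open MeasureTheory Filter Topology
open scoped ENNReal NNReal RealInnerProductSpace

namespace Crest.Agent.Helper75.OT

open Crest.AnalysisR.OT Crest.Agent.Helper82

variable {d : ℕ}

/-- Cell masses depend continuously on the weights (general countably generated filter). -/
theorem tendsto_gM {K : Set (E d)} (hK : Body K) (S : Finset (E d)) (c : E d) (hc : c ∈ S)
    {α : Type*} (l : Filter α) [l.IsCountablyGenerated] (w : α → E d → ℝ) (w0 : E d → ℝ)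
    (hw : ∀ a ∈ S, Tendsto (fun k => w k a) l (𝓝 (w0 a))) :
    Tendsto (fun k => gM K S (w k) c) l (𝓝 (gM K S w0 c)) := by
  have : Nonempty ↥S := ⟨⟨c, hc⟩⟩
  have := SD.isProbabilityMeasure_uniformProbOn hK.compact hK.inter
  have h1 := SD.tendsto_measure_cell (uniformProbOn K)
    (fun v t hv => SD.uniformProbOn_hyperplane K v hv t)
    (fun i : ↥S => (i : E d)) Subtype.val_injective l
    (fun k => fun i : ↥S => w k i) (fun i : ↥S => w0 i) (fun i => hw i i.2) ⟨c, hc⟩
  have h2 := (ENNReal.tendsto_toReal (measure_ne_top (uniformProbOn K)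
    (SD.cell (fun i : ↥S => (i : E d)) (fun i : ↥S => w0 i) ⟨c, hc⟩))).comp h1
  unfold gM
  simp only [measure_Lag_eq_cell hK S _ hc]
  exact h2

/-- Continuity of the weights in the masses (general filter, general convergent masses). -/
theorem lagWeights_tendsto_gen {K : Set (E d)} (hK : Body K) (S : Finset (E d))
    (hS : S.Nonempty) (g Θ : E d → ℝ) (hg : ∀ c ∈ S, 0 < g c) (hΘ : ∑ c ∈ S, Θ c = 0)
    (w : E d → ℝ) (hw : IsLagWeights K S g w)
    {α : Type*} (l : Filter α) [l.IsCountablyGenerated] (gs : α → E d → ℝ)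
    (hgs : ∀ c ∈ S, Tendsto (fun s => gs s c) l (𝓝 (g c)))
    (ws : α → E d → ℝ) (hws : ∀ᶠ s in l, IsLagWeights K S (gs s) (ws s)) :
    Tendsto (fun s => ∑ c ∈ S, Θ c * ws s c) l (𝓝 (∑ c ∈ S, Θ c * w c)) := by
  have : Nonempty ↥S := hS.to_subtype
  have := SD.isProbabilityMeasure_uniformProbOn hK.compact hK.inter
  obtain ⟨R, hR⟩ := SD.uniformProbOn_ae_bound hK.compact
  have key : ∀ (g' v : E d → ℝ), IsLagWeights K S g' v → ∀ i : ↥S,
      (uniformProbOn K) (SD.cell (fun i : ↥S => (i : E d)) (fun i : ↥S => v i) i)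
        = ENNReal.ofReal (g' i) := by
    intro g' v hv i
    have h1 := hv i i.2
    unfold gM at h1
    rw [measure_Lag_eq_cell hK S v i.2] at h1
    rw [← h1, ENNReal.ofReal_toReal (measure_ne_top _ _)]
  have h := SD.tendsto_weights (uniformProbOn K) hR
    (fun v t hv => SD.uniformProbOn_hyperplane K v hv t) K hK.convex.isPreconnected
    (SD.uniformProbOn_compl hK.compact.measurableSet)
    (fun U hU hne => SD.uniformProbOn_pos_of_open hK.compact hK.convex hK.inter hU hne)
    (fun i : ↥S => (i : E d)) Subtype.val_injective (fun i : ↥S => g i) (fun i => hg i i.2)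
    (fun i : ↥S => w i) (key g w hw) l (fun s => fun i : ↥S => gs s i)
    (fun s => fun i : ↥S => ws s i) (fun i => hgs i i.2)
    (hws.mono fun s hs => key (gs s) (ws s) hs) (fun i : ↥S => Θ i)
    (by rw [Finset.sum_coe_sort S Θ]; exact hΘ)
  have e1 : ∀ s, ∑ c ∈ S, Θ c * ws s c = ∑ i : ↥S, Θ i * ws s i := fun s =>
    (Finset.sum_coe_sort S (fun c => Θ c * ws s c)).symm
  have e2 : ∑ c ∈ S, Θ c * w c = ∑ i : ↥S, Θ i * w i :=
    (Finset.sum_coe_sort S (fun c => Θ c * w c)).symm
  simp only [e1, e2]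
  exact h

/-- **Spec.lagWeights_tendsto**: continuity of the weights in the masses, tested against a
mean-zero direction. -/
theorem lagWeights_tendsto {K : Set (E d)} (hK : Body K) (S : Finset (E d)) (hS : S.Nonempty)
    (g Θ : E d → ℝ) (hg : ∀ c ∈ S, 0 < g c) (hsum : ∑ c ∈ S, g c = 1)
    (hΘ : ∑ c ∈ S, Θ c = 0) (w : E d → ℝ) (hw : IsLagWeights K S g w) (ws : ℝ → E d → ℝ)
    (hws : ∀ᶠ s in 𝓝[>] (0 : ℝ), IsLagWeights K S (fun c => g c + s * Θ c) (ws s)) :
    Tendsto (fun s => ∑ c ∈ S, Θ c * ws s c) (𝓝[>] 0) (𝓝 (∑ c ∈ S, Θ c * w c)) := by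
  refine lagWeights_tendsto_gen hK S hS g Θ hg hΘ w hw (𝓝[>] (0 : ℝ))
    (fun s c => g c + s * Θ c) (fun c _ => ?_) ws hws
  have h1 : Tendsto (fun s : ℝ => g c + s * Θ c) (𝓝 0) (𝓝 (g c + 0 * Θ c)) :=
    tendsto_const_nhds.add (tendsto_id.mul_const (Θ c))
  rw [zero_mul, add_zero] at h1
  exact h1.mono_left nhdsWithin_le_nhds

/-- The derivative of `Mval` in a mass direction, from the supergradient inequality
(`Spec.Mval_mass_le`, here a hypothesis `hle`) and the continuity of the weights. -/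
theorem mass_deriv_of_le {K : Set (E d)} (hK : Body K) (S : Finset (E d)) (hS : S.Nonempty)
    (hle : ∀ (g g' w w' : E d → ℝ), IsLagWeights K S g w → IsLagWeights K S g' w' →
      Mval K S w' ≤ Mval K S w + ∑ c ∈ S, (g' c - g c) * w c)
    (g Θ : E d → ℝ) (hg : ∀ c ∈ S, 0 < g c) (hsum : ∑ c ∈ S, g c = 1)
    (hΘ : ∑ c ∈ S, Θ c = 0) (w : E d → ℝ) (hw : IsLagWeights K S g w) (ws : ℝ → E d → ℝ)
    (hws : ∀ᶠ s in 𝓝[>] (0 : ℝ), IsLagWeights K S (fun c => g c + s * Θ c) (ws s)) :
    Tendsto (fun s => (Mval K S (ws s) - Mval K S w) / s) (𝓝[>] 0)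
      (𝓝 (∑ c ∈ S, Θ c * w c)) := by
  have hlim := lagWeights_tendsto hK S hS g Θ hg hsum hΘ w hw ws hws
  refine tendsto_of_tendsto_of_tendsto_of_le_of_le' hlim tendsto_const_nhds ?_ ?_
  · filter_upwards [hws, self_mem_nhdsWithin] with s hs hs0
    have hs0' : (0 : ℝ) < s := hs0
    have h1 := hle (fun c => g c + s * Θ c) g (ws s) w hs hw
    have h2 : ∑ c ∈ S, (g c - (g c + s * Θ c)) * ws s c = - (s * ∑ c ∈ S, Θ c * ws s c) := by
      rw [Finset.mul_sum, ← Finset.sum_neg_distrib]
      apply Finset.sum_congr rfl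
      intro c _
      ring
    rw [h2] at h1
    rw [le_div_iff₀ hs0']
    linarith
  · filter_upwards [hws, self_mem_nhdsWithin] with s hs hs0
    have hs0' : (0 : ℝ) < s := hs0
    have h1 := hle g (fun c => g c + s * Θ c) w (ws s) hw hs
    have h2 : ∑ c ∈ S, (g c + s * Θ c - g c) * w c = s * ∑ c ∈ S, Θ c * w c := by
      rw [Finset.mul_sum]
      apply Finset.sum_congr rfl
      intro c _
      ring
    rw [h2] at h1
    rw [div_le_iff₀ hs0']
    linarith

end Crest.Agent.Helper75.OT
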