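import Crest.Agent.Helper75.OT.Defs
import Crest.Agent.Helper82.SD.Uniform

/-!
# Row 82 (S0109) — WP-EX and WP-UQ in the shape of `Crest.Agent.Helper75.OT.Spec`

`exists_lagWeights` and `lagWeights_unique`, proved from the raw-cell theory in
`Crest.Agent.Helper82.SD`.  Also the bridge `Lag_eq_inter_cell` between helper75's `Lag` and the
raw cell.
-/

set_option autoImplicit false

noncomputable section

open MeasureTheory
open scoped ENNReal NNReal RealInnerProductSpace

namespace Crest.Agent.Helper75.OT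

open Crest.AnalysisR.OT Crest.Agent.Helper82

variable {d : ℕ}

/-- Bridge: helper75's cell is `K ∩` the raw cell for the subtype-indexed sites. -/
theorem Lag_eq_inter_cell (K : Set (E d)) (S : Finset (E d)) (w : E d → ℝ) {c : E d}
    (hc : c ∈ S) :
    Lag K S w c = K ∩ SD.cell (fun i : ↥S => (i : E d)) (fun i : ↥S => w i) ⟨c, hc⟩ := by
  ext x
  simp only [Lag, Set.mem_inter_iff, SD.mem_cell]
  constructor
  · rintro ⟨hxK, hx⟩
    exact ⟨hxK, fun j => hx j j.2⟩
  · rintro ⟨hxK, hx⟩
    exact ⟨hxK, fun c' hc' => hx ⟨c', hc'⟩⟩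

/-- Bridge for the masses. -/
theorem measure_Lag_eq_cell {K : Set (E d)} (hK : Body K) (S : Finset (E d)) (w : E d → ℝ)
    {c : E d} (hc : c ∈ S) :
    (uniformProbOn K) (Lag K S w c)
      = (uniformProbOn K) (SD.cell (fun i : ↥S => (i : E d)) (fun i : ↥S => w i) ⟨c, hc⟩) := by
  rw [Lag_eq_inter_cell K S w hc, SD.uniformProbOn_inter_self hK.compact.measurableSet]

/-- **WP-EX**: existence of Laguerre weights with prescribed positive cell masses. -/
theorem exists_lagWeights {K : Set (E d)} (hK : Body K) (S : Finset (E d)) (hS : S.Nonempty)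
    (g : E d → ℝ) (hg : ∀ c ∈ S, 0 < g c) (hsum : ∑ c ∈ S, g c = 1) :
    ∃ w : E d → ℝ, IsLagWeights K S g w := by
  classical
  have : Nonempty ↥S := hS.to_subtype
  have := SD.isProbabilityMeasure_uniformProbOn hK.compact hK.inter
  obtain ⟨R, hR⟩ := SD.uniformProbOn_ae_bound hK.compact
  obtain ⟨ψ, -, hψ, -⟩ := SD.exists_weights (uniformProbOn K) hR
    (fun v c hv => SD.uniformProbOn_hyperplane K v hv c)
    (fun i : ↥S => (i : E d)) Subtype.val_injective (fun i : ↥S => g i)
    (fun i => hg i i.2) (by rw [Finset.sum_coe_sort S g]; exact hsum)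
  refine ⟨fun c => if h : c ∈ S then ψ ⟨c, h⟩ else 0, ?_⟩
  intro c hc
  unfold gM
  rw [measure_Lag_eq_cell hK S _ hc]
  have hfun : (fun i : ↥S => (fun c => if h : c ∈ S then ψ ⟨c, h⟩ else 0) (i : E d)) = ψ := by
    funext i
    simp [i.2]
  rw [hfun, hψ ⟨c, hc⟩, ENNReal.toReal_ofReal (hg c hc).le]

/-- **WP-UQ**: Laguerre weights realising given positive masses are unique up to a constant. -/
theorem lagWeights_unique {K : Set (E d)} (hK : Body K) (S : Finset (E d)) (g : E d → ℝ)
    (hg : ∀ c ∈ S, 0 < g c) (w w' : E d → ℝ) (h : IsLagWeights K S g w)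
    (h' : IsLagWeights K S g w') : ∃ κ : ℝ, ∀ c ∈ S, w' c = w c + κ := by
  classical
  rcases S.eq_empty_or_nonempty with rfl | hS
  · exact ⟨0, by simp⟩
  have : Nonempty ↥S := hS.to_subtype
  have := SD.isProbabilityMeasure_uniformProbOn hK.compact hK.inter
  have key : ∀ v : E d → ℝ, IsLagWeights K S g v → ∀ i : ↥S,
      (uniformProbOn K) (SD.cell (fun i : ↥S => (i : E d)) (fun i : ↥S => v i) i)
        = ENNReal.ofReal (g i) := by
    intro v hv i
    have h1 := hv i i.2
    unfold gM at h1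
    rw [measure_Lag_eq_cell hK S v i.2] at h1
    rw [← h1, ENNReal.ofReal_toReal (measure_ne_top _ _)]
  obtain ⟨κ, hκ⟩ := SD.weights_unique (uniformProbOn K) K hK.convex.isPreconnected
    (SD.uniformProbOn_compl hK.compact.measurableSet)
    (fun U hU hne => SD.uniformProbOn_pos_of_open hK.compact hK.convex hK.inter hU hne)
    (fun i : ↥S => (i : E d)) (fun i : ↥S => w i) (fun i : ↥S => w' i)
    (fun i => by rw [key w' h' i, key w h i])
    (fun i => by rw [key w h i]; exact ENNReal.ofReal_pos.2 (hg i i.2))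
  exact ⟨κ, fun c hc => hκ ⟨c, hc⟩⟩

end Crest.Agent.Helper75.OT
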